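import Vale.Agent.P207.N5.H547.AffLemA
import Vale.Agent.P207.N4.H646.TauB
import Vale.Agent.P207.N4.H575.T3.Pack

/-!
# P207, all dimensions: uniqueness of the affine charts, the areas are parallel (row DH-UNIQ)

`Aff.cu_char` : `F.c⁻¹ • F.cu x u` is the only vector `v` with
`‖D v - y‖ ≤ C * ‖y‖ ^ 2`, `y = τ x (φ (-t) x) u`, `D` the derivative at `0`, for arbitrarily large
`t`, if the leaf is bunched. `Aff.unique` : uniqueness of the affine charts.
`Aff.s_const` : the density of the Margulis area is constant in the affine coordinate.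
`Aff.det_P`, `Aff.det_lin` : the determinants of the flow and of the change of frame.
-/

open Set Filter Topology Metric MeasureTheory
open scoped ContDiff

noncomputable section

namespace Vale.Agent.P207.N4.V

open Vale.Agent.P207.N3
open Vale.Agent.P207.N4.H646 (pm pm_mem e_pm pm_zero pm_small mem_dm_back zero_mem_dm_back φ_back
  em_back tau_hasFDerivAt zero_mem3)

variable [Dim]

variable {Γ X B : Type} [Group Γ] [MetricSpace X] [ProperSpace X] [MulAction Γ X]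
  [IsIsometricSMul Γ X] [TopologicalSpace B] [CompactSpace B] [T2Space B] [MulAction Γ B]
  [ContinuousConstSMul Γ B] {L : Leaf Γ X B}

namespace H734

theorem sub3 {u : E2} (hu : u ∈ ball (0 : E2) 3) : u ∈ closedBall (0 : E2) 3 :=
  ball_subset_closedBall hu

/-- Taylor's formula -/
theorem quad {f : E2 → E2} {C : ℝ} (hC : 0 ≤ C)
    (hd1 : ∀ w ∈ ball (0 : E2) 3, DifferentiableAt ℝ f w)
    (hd2 : ∀ w ∈ ball (0 : E2) 3, DifferentiableAt ℝ (fderiv ℝ f) w)
    (hb : ∀ u ∈ closedBall (0 : E2) 1, ‖fderiv ℝ (fderiv ℝ f) u‖ ≤ C) (h0 : f 0 = 0) {u : E2}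
    (hu : u ∈ closedBall (0 : E2) 1) :
    ‖fderiv ℝ f u - fderiv ℝ f 0‖ ≤ C * ‖u‖ ∧ ‖f u - fderiv ℝ f 0 u‖ ≤ C * ‖u‖ ^ 2 := by
  have hsub : closedBall (0 : E2) 1 ⊆ ball 0 3 := closedBall_subset_ball (by norm_num)
  have hz : (0 : E2) ∈ closedBall (0 : E2) 1 := mem_closedBall_self (by norm_num)
  have h1 : ∀ w ∈ closedBall (0 : E2) 1, ‖fderiv ℝ f w - fderiv ℝ f 0‖ ≤ C * ‖w‖ := by
    intro w hw
    have := (convex_closedBall (0 : E2) 1).norm_image_sub_le_of_norm_fderiv_le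
      (fun z hz => hd2 z (hsub hz)) hb hz hw
    rwa [sub_zero] at this
  refine ⟨h1 u hu, ?_⟩
  have hu1 : ‖u‖ ≤ 1 := mem_closedBall_zero_iff.1 hu
  have hsub2 : closedBall (0 : E2) ‖u‖ ⊆ closedBall 0 1 := closedBall_subset_closedBall hu1
  have h2 := (convex_closedBall (0 : E2) ‖u‖).norm_image_sub_le_of_norm_hasFDerivWithin_le
    (f := fun w => f w - fderiv ℝ f 0 w) (f' := fun w => fderiv ℝ f w - fderiv ℝ f 0)
    (C := C * ‖u‖)
    (fun w hw => ((hd1 w (hsub (hsub2 hw))).hasFDerivAt.sub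
      (fderiv ℝ f 0).hasFDerivAt).hasFDerivWithinAt)
    (fun w hw => (h1 w (hsub2 hw)).trans
      (mul_le_mul_of_nonneg_left (mem_closedBall_zero_iff.1 hw) hC))
    (mem_closedBall_self (norm_nonneg u)) (mem_closedBall_zero_iff.2 le_rfl)
  rw [h0, map_zero, sub_zero, sub_zero, sub_zero] at h2
  calc _ ≤ _ := h2
    _ = _ := by ring

/-- the bunching of the leaf -/
def Bun (L : Leaf Γ X B) : Prop := ∀ x, ∀ u ∈ ball (0 : E2) 3, Tendsto (fun t : ℝ =>
  ‖fderiv ℝ (L.τ (L.φ (-t) x) x) 0‖ * ‖pm L t x u‖ ^ 2) atTop (𝓝 0)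

/-- the rates `a`, `b` with `b < 2 a` imply the bunching -/
theorem bun_of {a b C : ℝ} (hab : b < 2 * a) (h1 : ∀ x, ∀ t ≥ L.t1, ∀ u ∈ ball (0 : E2) 3,
    ‖fderiv ℝ (L.τ (L.φ t x) x) u‖ ≤ C * Real.exp (-a * t)) (h2 : ∀ x, ∀ t ≥ L.t1,
    ‖fderiv ℝ (L.τ x (L.φ t x)) 0‖ ≤ C * Real.exp (b * t)) : Bun L := by
  intro x u hu
  have hC : 0 ≤ C := by
    have := (norm_nonneg _).trans (h2 x L.t1 le_rfl)
    exact nonneg_of_mul_nonneg_left this (Real.exp_pos _)
  have hlim : Tendsto (fun t : ℝ => (C * (3 * C) ^ 2) * Real.exp (-((2 * a - b) * t))) atTop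
      (𝓝 0) := by
    have h3 : Tendsto (fun t : ℝ => Real.exp (-((2 * a - b) * t))) atTop (𝓝 0) :=
      Real.tendsto_exp_neg_atTop_nhds_zero.comp
        (Tendsto.const_mul_atTop (by linarith) tendsto_id)
    have h4 := h3.const_mul (C * (3 * C) ^ 2)
    rwa [mul_zero] at h4
  refine squeeze_zero' (Eventually.of_forall fun t => by positivity) ?_ hlim
  filter_upwards [eventually_ge_atTop L.t1] with t ht
  have h5 : ‖fderiv ℝ (L.τ (L.φ (-t) x) x) 0‖ ≤ C * Real.exp (b * t) := by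
    have := h2 (L.φ (-t) x) t ht
    rwa [φ_back] at this
  have h6 : ‖pm L t x u‖ ≤ 3 * C * Real.exp (-a * t) := by
    have h7 := (convex_ball (0 : E2) 3).norm_image_sub_le_of_norm_fderiv_le
      (f := pm L t x) (C := C * Real.exp (-a * t))
      (fun w hw => (tau_hasFDerivAt L (em_back L t x) (mem_dm_back L ht x hw)).differentiableAt)
      (fun w hw => by
        have := h1 (L.φ (-t) x) t ht w hw
        rwa [φ_back] at this) zero_mem3 hu
    rw [pm_zero, sub_zero, sub_zero] at h7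
    have h8 : ‖u‖ ≤ 3 := (mem_ball_zero_iff.1 hu).le
    calc _ ≤ _ := h7
      _ ≤ C * Real.exp (-a * t) * 3 := by gcongr
      _ = _ := by ring
  calc _ ≤ (C * Real.exp (b * t)) * (3 * C * Real.exp (-a * t)) ^ 2 := by gcongr
    _ = (C * (3 * C) ^ 2) * (Real.exp (b * t) * Real.exp (-a * t) ^ 2) := by ring
    _ = _ := by
      rw [← Real.exp_nat_mul, ← Real.exp_add]
      congr 2
      push_cast
      ring

theorem pm_tendsto (L : Leaf Γ X B) (x : X) {u : E2} (hu : u ∈ ball (0 : E2) 3) :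
    Tendsto (fun t : ℝ => ‖pm L t x u‖) atTop (𝓝 0) := by
  obtain ⟨K, hK1, hK⟩ := pm_small L
  have h1 : Tendsto (fun t : ℝ => K * Real.exp (-L.χ * t)) atTop (𝓝 0) := by
    have h3 : Tendsto (fun t : ℝ => Real.exp (-(L.χ * t))) atTop (𝓝 0) :=
      Real.tendsto_exp_neg_atTop_nhds_zero.comp (Tendsto.const_mul_atTop L.χ_pos tendsto_id)
    have h4 := h3.const_mul K
    rw [mul_zero] at h4
    exact h4.congr fun t => by rw [neg_mul]
  refine squeeze_zero' (Eventually.of_forall fun t => norm_nonneg _) ?_ h1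
  filter_upwards [eventually_ge_atTop L.t1] with t ht using hK x t ht u hu

end H734

open Vale.Agent.P207.N4.V.H734

namespace Aff

variable (F : Aff L)

/-- the flow is linear -/
theorem ch_flow (t : ℝ) (x : X) {η : B} (hη : η ≠ L.em x) :
    F.ch (L.φ t x) η = F.P t x (F.ch x η) := by
  conv_lhs => rw [← F.pt_ch x η hη, ← F.flow t x, F.ch_pt]

theorem cu_pm {t : ℝ} (ht : L.t1 ≤ t) (x : X) {u : E2} (hu : u ∈ ball (0 : E2) 3) :
    F.cu (L.φ (-t) x) (pm L t x u) = F.P (-t) x (F.cu x u) := by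
  rw [cu, e_pm L ht x hu, F.ch_flow (-t) x (L.e_ne x u (sub3 hu))]
  rfl

/-- the linear part of the past maps -/
theorem P_back (t : ℝ) (x : X) : (F.P (-t) x : E2 →L[ℝ] E2) = fderiv ℝ (pm L t x) 0 := by
  have h1 := H646.fderiv_tau_inv L (em_back L t x) (zero_mem_dm_back L t x)
  have h2 : L.τ x (L.φ (-t) x) 0 = 0 := pm_zero L t x
  rw [h2, ← F.P_fderiv (-t) x] at h1
  have h3 := congrArg (fun A : E2 →L[ℝ] E2 => (F.P (-t) x : E2 →L[ℝ] E2).comp A) h1
  simp only [ContinuousLinearMap.comp_id] at h3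
  rw [← h3, ← ContinuousLinearMap.comp_assoc]
  ext v
  simp [pm]

/-- the affine chart is close to `c` times the identity, uniformly -/
theorem cu_near : ∃ C, 0 ≤ C ∧ ∀ x, ∀ u ∈ closedBall (0 : E2) 1,
    ‖fderiv ℝ (F.cu x) u - F.c • ContinuousLinearMap.id ℝ E2‖ ≤ C * ‖u‖ ∧
    ‖F.cu x u - F.c • u‖ ≤ C * ‖u‖ ^ 2 := by
  obtain ⟨C, hC, h⟩ := H646.bdd_of_inv L (r := 1) (by norm_num)
    (f := fun x u => fderiv ℝ (fderiv ℝ (F.cu x)) u) F.cu_jc.fderiv.fderiv.continuousOn (by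
      intro g x u hu
      have h1 : F.cu (g • x) =ᶠ[𝓝 u] F.cu x := by
        filter_upwards [isOpen_ball.mem_nhds hu] with w hw using F.cu_smul g x (sub3 hw)
      exact h1.fderiv.fderiv_eq)
  refine ⟨C, hC.le, fun x u hu => ?_⟩
  have h2 := quad hC.le (fun w hw => F.cu_jc.differentiableAt (p := (x, w)) ⟨mem_univ _, hw⟩)
    (fun w hw => F.cu_jc.fderiv.differentiableAt (p := (x, w)) ⟨mem_univ _, hw⟩) (h x)
    (F.cu_zero x) hu
  have h3 : fderiv ℝ (F.cu x) 0 = F.c • ContinuousLinearMap.id ℝ E2 := F.der_zero x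
  rw [h3] at h2
  simpa using h2

/-- **the affine chart is determined by its first order behaviour along the past orbit** -/
theorem cu_char (hb : Bun L) {x : X} {u v : E2} (hu : u ∈ ball (0 : E2) 3) {C : ℝ}
    (h : ∃ᶠ t : ℝ in atTop,
      ‖fderiv ℝ (pm L t x) 0 v - pm L t x u‖ ≤ C * ‖pm L t x u‖ ^ 2) :
    F.cu x u = F.c • v := by
  obtain ⟨K, hK, hn⟩ := F.cu_near
  have key : ∃ᶠ t : ℝ in atTop, ‖F.cu x u - F.c • v‖ ≤ (K + F.c * C) *
      (‖fderiv ℝ (L.τ (L.φ (-t) x) x) 0‖ * ‖pm L t x u‖ ^ 2) := by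
    refine (h.and_eventually (eventually_ge_atTop L.t1)).mono ?_
    rintro t ⟨h1, ht⟩
    set y := pm L t x u with hy
    have hy1 : y ∈ closedBall (0 : E2) 1 := ball_subset_closedBall (pm_mem L ht x hu)
    have h2 := (hn (L.φ (-t) x) y hy1).2
    rw [hy, F.cu_pm ht x hu, ← hy] at h2
    have h3 : ‖F.P (-t) x (F.cu x u - F.c • v)‖ ≤ (K + F.c * C) * ‖y‖ ^ 2 := by
      have h4 : F.P (-t) x (F.cu x u - F.c • v) = (F.P (-t) x (F.cu x u) - F.c • y) -
          F.c • (fderiv ℝ (pm L t x) 0 v - y) := by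
        rw [← F.P_back t x, map_sub, map_smul, smul_sub]
        change _ = _ - (F.c • (F.P (-t) x v) - F.c • y)
        abel
      rw [h4]
      calc _ ≤ _ := norm_sub_le _ _
        _ ≤ K * ‖y‖ ^ 2 + F.c * (C * ‖y‖ ^ 2) := by
            refine add_le_add h2 ?_
            rw [norm_smul, Real.norm_of_nonneg F.c_pos.le]
            exact mul_le_mul_of_nonneg_left h1 F.c_pos.le
        _ = _ := by ring
    have h5 : F.cu x u - F.c • v = fderiv ℝ (L.τ (L.φ (-t) x) x) 0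
        (F.P (-t) x (F.cu x u - F.c • v)) := by
      rw [← F.P_fderiv (-t) x]
      simp
    calc ‖F.cu x u - F.c • v‖ = ‖fderiv ℝ (L.τ (L.φ (-t) x) x) 0
          (F.P (-t) x (F.cu x u - F.c • v))‖ := by rw [← h5]
      _ ≤ ‖fderiv ℝ (L.τ (L.φ (-t) x) x) 0‖ * ((K + F.c * C) * ‖y‖ ^ 2) :=
          (ContinuousLinearMap.le_opNorm _ _).trans (by gcongr)
      _ = _ := by ring
  have h6 : Tendsto (fun t : ℝ => (K + F.c * C) *
      (‖fderiv ℝ (L.τ (L.φ (-t) x) x) 0‖ * ‖pm L t x u‖ ^ 2)) atTop (𝓝 0) := by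
    have := (hb x u hu).const_mul (K + F.c * C)
    rwa [mul_zero] at this
  have h7 : ‖F.cu x u - F.c • v‖ ≤ 0 := by
    by_contra hneg
    obtain ⟨t, h8, h9⟩ := (key.and_eventually (h6.eventually (gt_mem_nhds (not_le.1 hneg)))).exists
    exact absurd h9 (not_lt.2 h8)
  exact sub_eq_zero.1 (norm_le_zero_iff.1 h7)

/-- **uniqueness of the affine charts**, along one past orbit -/
theorem unique_orbit (hb : Bun L) {r C t₀ : ℝ} (hr : 0 < r) (x : X) {l : ℝ → E2 → E2} {v : E2}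
    {u : E2} (hu3 : u ∈ ball (0 : E2) 3)
    (hl : ∀ t ≥ t₀, ∀ w ∈ ball (0 : E2) r, ‖l t w - w‖ ≤ C * ‖w‖ ^ 2)
    (hs : ∀ t ≥ t₀, pm L t x u ∈ ball (0 : E2) r →
      l t (pm L t x u) = fderiv ℝ (pm L t x) 0 v) : F.cu x u = F.c • v := by
  refine F.cu_char hb hu3 (C := C) (Eventually.frequently ?_)
  filter_upwards [(pm_tendsto L x hu3).eventually (gt_mem_nhds hr), eventually_ge_atTop L.t1,
    eventually_ge_atTop t₀] with t h2 ht ht0
  have h3 : pm L t x u ∈ ball (0 : E2) r := mem_ball_zero_iff.2 h2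
  rw [← hs t ht0 h3]
  exact hl t ht0 _ h3

/-- **uniqueness of the affine charts** -/
theorem unique (hb : Bun L) {r C t₀ : ℝ} (hr : 0 < r) {l : X → E2 → E2}
    (hl : ∀ x, ∀ u ∈ ball (0 : E2) r, ‖l x u - u‖ ≤ C * ‖u‖ ^ 2)
    (hs : ∀ x, ∀ t ≥ t₀, ∀ u ∈ ball (0 : E2) r, u ∈ ball (0 : E2) 3 →
      pm L t x u ∈ ball (0 : E2) r →
      l (L.φ (-t) x) (pm L t x u) = fderiv ℝ (pm L t x) 0 (l x u)) (x : X) {u : E2}
    (hu : u ∈ ball (0 : E2) r) (hu3 : u ∈ ball (0 : E2) 3) : F.cu x u = F.c • l x u :=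
  F.unique_orbit hb hr x hu3 (l := fun t => l (L.φ (-t) x)) (t₀ := t₀)
    (fun _ _ w hw => hl _ w hw) (fun t ht h => hs x t ht u hu hu3 h)

/-- the change of frame in the charts -/
theorem lin_ch {x y : X} (h : L.em x = L.em y) {η : B} (hη : η ≠ L.em x) :
    F.ch y η = F.lin x y (F.ch x η - F.ch x (L.ep y)) := by
  conv_lhs => rw [← F.pt_ch x η hη, ← F.leaf x y h, F.ch_pt]

/-- the past discs exhaust the leaf -/
theorem exhaust1 (L : Leaf Γ X B) (x : X) {η : B} (h : η ≠ L.em x) :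
    ∃ c₀ : ℝ, ∀ c ≥ c₀, η ∈ L.e (L.φ (-c) x) '' ball 0 1 := by
  obtain ⟨y, hy1, hy2, hy3⟩ := L.exists_frame (L.em x) η h.symm (L.lv x)
  obtain ⟨c₀, hc₀⟩ := L.past_engulf (dist x y)
  refine ⟨c₀, fun c hc => ?_⟩
  have h1 := hc₀ x y hy1.symm hy3.symm le_rfl c hc
  rwa [hy2] at h1

/-- the flow and the change of frame -/
theorem lin_P {x y : X} (h : L.em x = L.em y) (t : ℝ) :
    ((F.lin (L.φ t x) y : E2 ≃L[ℝ] E2) : E2 →L[ℝ] E2).comp
      ((F.P t x : E2 ≃L[ℝ] E2) : E2 →L[ℝ] E2) = ((F.lin x y : E2 ≃L[ℝ] E2) : E2 →L[ℝ] E2) := by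
  have hη : L.ep y ≠ L.em x := by rw [h]; exact (L.em_ne_ep y).symm
  have hx : L.em (L.φ t x) = L.em y := (L.em_φ t x).trans h
  have h4 : ∀ q, F.lin (L.φ t x) y (F.P t x (q - F.ch x (L.ep y))) =
      F.lin x y (q - F.ch x (L.ep y)) := by
    intro q
    have h5 := F.leaf x y h q
    rw [← F.flow t x q, ← F.leaf (L.φ t x) y hx] at h5
    have h7 := F.pt_inj y h5
    rw [h7, map_sub]
    congr 2
    exact (F.ch_flow t x hη).symm
  ext1 q
  have h5 := h4 (q + F.ch x (L.ep y))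
  simpa using h5

/-! ### the areas are parallel -/

section area

variable [MeasurableSpace B] [BorelSpace B] (A : Area L)

theorem s_quot : ∃ C, 0 ≤ C ∧ ∀ x, ∀ u ∈ closedBall (0 : E2) 1,
    |A.s x u / A.s x 0 - 1| ≤ C * ‖u‖ := by
  have hjc : JC A.s (univ ×ˢ ball 0 3) := ⟨isOpen_univ.prod isOpen_ball,
    fun x => (A.s_smooth x).mono fun u hu => hu.2, A.s_cont⟩
  obtain ⟨C, hC, h⟩ := H646.bdd_of_inv L (r := 1) (by norm_num)
    (f := fun x u => fderiv ℝ (A.s x) u) hjc.fderiv.continuousOn (by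
      intro g x u hu
      have h1 : A.s (g • x) =ᶠ[𝓝 u] A.s x := by
        filter_upwards [isOpen_ball.mem_nhds hu] with w hw using A.s_smul g x w hw
      exact h1.fderiv_eq)
  obtain ⟨D, hD, h'⟩ := H646.bdd_of_inv L (r := 0) (by norm_num)
    (f := fun x u => (A.s x u)⁻¹) (hjc.continuousOn.inv₀ fun p hp => (A.s_pos p.1 p.2 hp.2).ne')
    (fun g x u hu => by rw [A.s_smul g x u hu])
  refine ⟨C * D, by positivity, fun x u hu => ?_⟩
  have h0 := A.s_pos x 0 zero_mem3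
  have h1 : |A.s x u - A.s x 0| ≤ C * ‖u‖ := by
    have h2 := (convex_closedBall (0 : E2) 1).norm_image_sub_le_of_norm_fderiv_le
      (fun z hz => hjc.differentiableAt (p := (x, z))
        ⟨mem_univ _, closedBall_subset_ball (by norm_num) hz⟩) (h x)
      (mem_closedBall_self (by norm_num)) hu
    rwa [sub_zero] at h2
  have h3 : |(A.s x 0)⁻¹| ≤ D := h' x 0 (mem_closedBall_self le_rfl)
  have h4 : A.s x u / A.s x 0 - 1 = (A.s x u - A.s x 0) * (A.s x 0)⁻¹ := by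
    field_simp
  rw [h4, abs_mul]
  calc _ ≤ (C * ‖u‖) * D := by gcongr
    _ = _ := by ring

/-- **the density of the Margulis area, in the disc coordinate** -/
theorem s_cu (x : X) {u : E2} (hu : u ∈ ball (0 : E2) 3) :
    F.c ^ Dim.m * A.s x u = A.s x 0 * |(fderiv ℝ (F.cu x) u).det| := by
  obtain ⟨C, hC, hn⟩ := F.cu_near
  obtain ⟨C', hC', hq⟩ := s_quot A
  have hpm := pm_tendsto L x hu
  -- the two limits
  have hW : Tendsto (fun t : ℝ => fderiv ℝ (F.cu (L.φ (-t) x)) (pm L t x u)) atTop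
      (𝓝 (F.c • ContinuousLinearMap.id ℝ E2)) := by
    rw [tendsto_iff_norm_sub_tendsto_zero]
    have h1 : Tendsto (fun t : ℝ => C * ‖pm L t x u‖) atTop (𝓝 0) := by
      have := hpm.const_mul C
      rwa [mul_zero] at this
    refine squeeze_zero' (Eventually.of_forall fun t => norm_nonneg _) ?_ h1
    filter_upwards [eventually_ge_atTop L.t1] with t ht
    exact (hn _ _ (ball_subset_closedBall (pm_mem L ht x hu))).1
  have hdet : Tendsto (fun t : ℝ => |(fderiv ℝ (F.cu (L.φ (-t) x)) (pm L t x u)).det|) atTop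
      (𝓝 (F.c ^ Dim.m)) := by
    have h1 := ((ContinuousLinearMap.continuous_det (𝕜 := ℝ) (E := E2)).tendsto _).comp hW
    have h2 : (F.c • ContinuousLinearMap.id ℝ E2 : E2 →L[ℝ] E2).det = F.c ^ Dim.m := by
      have h3 : ((F.c • ContinuousLinearMap.id ℝ E2 : E2 →L[ℝ] E2) : E2 →ₗ[ℝ] E2) =
          F.c • LinearMap.id := rfl
      rw [ContinuousLinearMap.det, h3, LinearMap.det_smul, LinearMap.det_id, mul_one]
      simp
    rw [h2] at h1
    have h4 := h1.abs
    rwa [abs_of_pos (pow_pos F.c_pos _)] at h4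
  have hs : Tendsto (fun t : ℝ => A.s (L.φ (-t) x) (pm L t x u) / A.s (L.φ (-t) x) 0) atTop
      (𝓝 1) := by
    rw [tendsto_iff_norm_sub_tendsto_zero]
    have h1 : Tendsto (fun t : ℝ => C' * ‖pm L t x u‖) atTop (𝓝 0) := by
      have := hpm.const_mul C'
      rwa [mul_zero] at this
    refine squeeze_zero' (Eventually.of_forall fun t => norm_nonneg _) ?_ h1
    filter_upwards [eventually_ge_atTop L.t1] with t ht
    exact hq _ _ (ball_subset_closedBall (pm_mem L ht x hu))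
  -- the identity for every time
  have hid : ∀ᶠ t : ℝ in atTop,
      |(fderiv ℝ (F.cu (L.φ (-t) x)) (pm L t x u)).det| * A.s x u =
      A.s x 0 * |(fderiv ℝ (F.cu x) u).det| *
        (A.s (L.φ (-t) x) (pm L t x u) / A.s (L.φ (-t) x) 0) := by
    filter_upwards [eventually_ge_atTop L.t1] with t ht
    set y := L.φ (-t) x with hy
    have hu1 : pm L t x u ∈ ball (0 : E2) 3 := ball_subset_ball (by norm_num) (pm_mem L ht x hu)
    -- derivatives
    have h1 : (fderiv ℝ (F.cu y) (pm L t x u)).comp (fderiv ℝ (pm L t x) u) =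
        (F.P (-t) x : E2 →L[ℝ] E2).comp (fderiv ℝ (F.cu x) u) := by
      have h2 : HasFDerivAt (fun w => F.cu y (pm L t x w))
          ((fderiv ℝ (F.cu y) (pm L t x u)).comp (fderiv ℝ (pm L t x) u)) u :=
        (F.cu_diff y hu1).hasFDerivAt.comp u
          (tau_hasFDerivAt L (em_back L t x) (mem_dm_back L ht x hu))
      have h3 : HasFDerivAt (fun w => F.P (-t) x (F.cu x w))
          ((F.P (-t) x : E2 →L[ℝ] E2).comp (fderiv ℝ (F.cu x) u)) u :=
        (F.P (-t) x : E2 →L[ℝ] E2).hasFDerivAt.comp u (F.cu_diff x hu).hasFDerivAt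
      have h4 : (fun w => F.cu y (pm L t x w)) =ᶠ[𝓝 u] fun w => F.P (-t) x (F.cu x w) := by
        filter_upwards [isOpen_ball.mem_nhds hu] with w hw using F.cu_pm ht x hw
      exact h2.unique (h3.congr_of_eventuallyEq h4)
    have h5 := congrArg (fun T : E2 →L[ℝ] E2 => |T.det|) h1
    simp only [H646.det_comp, abs_mul] at h5
    -- areas
    have h6 := A.s_trans x y (em_back L t x) u (mem_dm_back L ht x hu)
    have h7 := A.s_trans x y (em_back L t x) 0 (zero_mem_dm_back L t x)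
    have h8 : L.τ x y 0 = 0 := pm_zero L t x
    rw [h8] at h7
    have h9 : fderiv ℝ (L.τ x y) 0 = (F.P (-t) x : E2 →L[ℝ] E2) := (F.P_back t x).symm
    rw [h9] at h7
    change A.s x u = Real.exp (A.h * (L.lv x - L.lv y)) * |(fderiv ℝ (pm L t x) u).det| *
      A.s y (pm L t x u) at h6
    have h10 := A.s_pos y 0 zero_mem3
    rw [h6, h7]
    field_simp
    linear_combination (A.s y (pm L t x u)) * h5
  have hlim1 := hdet.mul_const (A.s x u)
  have hlim2 := hs.const_mul (A.s x 0 * |(fderiv ℝ (F.cu x) u).det|)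
  rw [mul_one] at hlim2
  exact tendsto_nhds_unique hlim1 (hlim2.congr' (hid.mono fun t h => h.symm))

/-- **the density of the Margulis area is constant in the affine coordinate** -/
theorem s_const {x : X} {q : E2} (h : (x, q) ∈ F.dT) :
    A.s x (F.dsc x q) * |(fderiv ℝ (F.dsc x) q).det| = A.s x 0 / F.c ^ Dim.m := by
  have h1 := F.s_cu A x (F.dsc_mem h)
  have h2 := congrArg ContinuousLinearMap.det (F.der_cu_dsc h)
  rw [H646.det_comp] at h2
  have h3 : (ContinuousLinearMap.id ℝ E2 : E2 →L[ℝ] E2).det = 1 := by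
    simp [ContinuousLinearMap.det]
  rw [h3] at h2
  have h4 : |(fderiv ℝ (F.cu x) (F.dsc x q)).det| * |(fderiv ℝ (F.dsc x) q).det| = 1 := by
    rw [← abs_mul, h2, abs_one]
  have hc := pow_pos F.c_pos Dim.m
  rw [eq_div_iff hc.ne']
  linear_combination |(fderiv ℝ (F.dsc x) q).det| * h1 + A.s x 0 * h4

/-- the determinant of the flow -/
theorem det_P (t : ℝ) (x : X) :
    |((F.P t x : E2 ≃L[ℝ] E2) : E2 →L[ℝ] E2).det| * A.s (L.φ t x) 0 =
      Real.exp (A.h * t) * A.s x 0 := by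
  have h1 : (0 : E2) ∈ L.dm (L.φ t x) x :=
    H646.mem_dm_of L zero_mem3 zero_mem3 (by rw [L.e_zero, L.e_zero, L.ep_φ])
  have h2 := A.s_trans (L.φ t x) x (L.em_φ t x) 0 h1
  have h3 : L.τ (L.φ t x) x 0 = 0 :=
    H646.tau_of L (sub3 zero_mem3) (by rw [L.e_zero, L.e_zero, L.ep_φ])
  rw [h3, ← F.P_fderiv t x, L.lv_φ, add_sub_cancel_left] at h2
  have h4 : ((F.P t x : E2 ≃L[ℝ] E2) : E2 →L[ℝ] E2).comp ((F.P t x).symm : E2 →L[ℝ] E2) =
      ContinuousLinearMap.id ℝ E2 := by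
    ext v; simp
  have h5 := congrArg ContinuousLinearMap.det h4
  rw [H646.det_comp] at h5
  have h6 : (ContinuousLinearMap.id ℝ E2 : E2 →L[ℝ] E2).det = 1 := by
    simp [ContinuousLinearMap.det]
  rw [h6] at h5
  have h7 : |((F.P t x : E2 ≃L[ℝ] E2) : E2 →L[ℝ] E2).det| *
      |((F.P t x).symm : E2 →L[ℝ] E2).det| = 1 := by rw [← abs_mul, h5, abs_one]
  rw [h2]
  linear_combination (Real.exp (A.h * t) * A.s x 0) * h7

/-- the determinant of the change of frame, if the discs overlap -/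
theorem det_lin_near {x y : X} (h : L.em x = L.em y) {u : E2} (hu : u ∈ ball (0 : E2) 3)
    (hue : L.e x u = L.ep y) :
    |((F.lin x y : E2 ≃L[ℝ] E2) : E2 →L[ℝ] E2).det| * A.s y 0 =
      Real.exp (A.h * (L.lv y - L.lv x)) * A.s x 0 := by
  have hdm : u ∈ L.dm x y := H646.mem_dm_of L hu zero_mem3 (by rw [hue, L.e_zero])
  have hτ : L.τ x y u = 0 := H646.tau_of L (sub3 zero_mem3) (by rw [hue, L.e_zero])
  have h1 : (fderiv ℝ (F.cu y) 0).comp (fderiv ℝ (L.τ x y) u) =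
      (F.lin x y : E2 →L[ℝ] E2).comp (fderiv ℝ (F.cu x) u) := by
    have h2 : HasFDerivAt (fun w => F.cu y (L.τ x y w))
        ((fderiv ℝ (F.cu y) 0).comp (fderiv ℝ (L.τ x y) u)) u := by
      have h3 : HasFDerivAt (F.cu y) (fderiv ℝ (F.cu y) 0) (L.τ x y u) := by
        rw [hτ]; exact (F.cu_diff y zero_mem3).hasFDerivAt
      exact h3.comp u (tau_hasFDerivAt L h hdm)
    have h3 : HasFDerivAt (fun w => F.lin x y (F.cu x w - F.ch x (L.ep y)))
        ((F.lin x y : E2 →L[ℝ] E2).comp (fderiv ℝ (F.cu x) u)) u :=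
      (F.lin x y : E2 →L[ℝ] E2).hasFDerivAt.comp u ((F.cu_diff x hu).hasFDerivAt.sub_const _)
    have h4 : (fun w => F.cu y (L.τ x y w)) =ᶠ[𝓝 u]
        fun w => F.lin x y (F.cu x w - F.ch x (L.ep y)) := by
      filter_upwards [(H646.isOpen_dm L x y).mem_nhds hdm] with w hw
      rw [cu, H646.e_tau L hw, F.lin_ch h (L.e_ne x w (sub3 hw.1))]
      rfl
    exact h2.unique (h3.congr_of_eventuallyEq h4)
  have h5 := congrArg (fun T : E2 →L[ℝ] E2 => |T.det|) h1
  simp only [H646.det_comp, abs_mul] at h5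
  have h6 := A.s_trans x y h u hdm
  rw [hτ] at h6
  have h7 := F.s_cu A x hu
  have h8 := F.s_cu A y zero_mem3
  have hpos := A.s_pos x u hu
  have hc := pow_pos F.c_pos Dim.m
  have hy0 := A.s_pos y 0 zero_mem3
  have hx0 := A.s_pos x 0 zero_mem3
  have h9 : |(fderiv ℝ (F.cu y) 0).det| = F.c ^ Dim.m := by
    have := mul_left_cancel₀ hy0.ne' ((mul_comm _ _).trans h8)
    exact this.symm
  rw [h9] at h5
  set D := |(fderiv ℝ (F.cu x) u).det| with hD
  have hDpos : 0 < D := by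
    have h10 : 0 < A.s x 0 * D := by rw [← h7]; positivity
    exact pos_of_mul_pos_right h10 hx0.le
  have hexp : Real.exp (A.h * (L.lv y - L.lv x)) * Real.exp (A.h * (L.lv x - L.lv y)) = 1 := by
    rw [← Real.exp_add, ← Real.exp_zero]
    congr 1
    ring
  -- `c ^ m * s x u = exp * |det lin| * D * s y 0 = s x 0 * D`
  have h11 : Real.exp (A.h * (L.lv x - L.lv y)) *
      (|((F.lin x y : E2 ≃L[ℝ] E2) : E2 →L[ℝ] E2).det| * A.s y 0) = A.s x 0 := by
    refine mul_right_cancel₀ hDpos.ne' ?_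
    rw [← h7, h6]
    linear_combination (-(Real.exp (A.h * (L.lv x - L.lv y)) * A.s y 0)) * h5
  rw [← h11]
  linear_combination
    (-(|((F.lin x y : E2 ≃L[ℝ] E2) : E2 →L[ℝ] E2).det| * A.s y 0)) * hexp

/-- **the determinant of the change of frame** -/
theorem det_lin {x y : X} (h : L.em x = L.em y) :
    |((F.lin x y : E2 ≃L[ℝ] E2) : E2 →L[ℝ] E2).det| * A.s y 0 =
      Real.exp (A.h * (L.lv y - L.lv x)) * A.s x 0 := by
  have hη : L.ep y ≠ L.em x := by rw [h]; exact (L.em_ne_ep y).symm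
  obtain ⟨c₀, hc₀⟩ := exhaust1 L x hη
  obtain ⟨u, hu, hue⟩ := hc₀ c₀ le_rfl
  set z := L.φ (-c₀) x with hz
  have hzx : L.φ c₀ z = x := H646.φ_back L c₀ x
  have hzm : L.em z = L.em x := L.em_φ _ _
  have h1 := F.det_lin_near A (hzm.trans h) (ball_subset_ball (by norm_num) hu) hue
  have h2 := F.det_P A c₀ z
  rw [hzx] at h2
  have h3 := F.lin_P (x := z) (y := y) (hzm.trans h) c₀
  rw [hzx] at h3
  have h4 := congrArg (fun T : E2 →L[ℝ] E2 => |T.det|) h3
  simp only [H646.det_comp, abs_mul] at h4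
  have h5 : L.lv x = L.lv z + c₀ := by rw [← hzx, L.lv_φ]
  have hx0 := A.s_pos x 0 zero_mem3
  have hy0 := A.s_pos y 0 zero_mem3
  have hz0 := A.s_pos z 0 zero_mem3
  have hP : 0 < |((F.P c₀ z : E2 ≃L[ℝ] E2) : E2 →L[ℝ] E2).det| := by
    have : 0 < |((F.P c₀ z : E2 ≃L[ℝ] E2) : E2 →L[ℝ] E2).det| * A.s x 0 := by
      rw [h2]; positivity
    exact pos_of_mul_pos_left this hx0.le
  refine mul_right_cancel₀ hP.ne' ?_
  rw [← h4] at h1
  have h6 : Real.exp (A.h * (L.lv y - L.lv z)) =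
      Real.exp (A.h * (L.lv y - L.lv x)) * Real.exp (A.h * c₀) := by
    rw [← Real.exp_add]
    congr 1
    rw [h5]
    ring
  rw [h6] at h1
  linear_combination h1 - Real.exp (A.h * (L.lv y - L.lv x)) * h2

end area

end Aff

end Vale.Agent.P207.N4.V
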